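import Vale.Agent.P267.Defs
import Vale.Agent.P278F.Osg

/-! P267, solver part C: charts, holomorphic functions, limits along ultrafilters. -/

open scoped Topology
open Filter Metric Set

noncomputable section

namespace Vale.Agent.P267

theorem cb_lim {G ι : Type} [NormedAddCommGroup G] [NormedSpace ℂ G] [FiniteDimensional ℂ G]
    (𝒰 : Ultrafilter ι) {a : ι → G} {C : ℝ} (h : ∀ᶠ k in 𝒰, ‖a k‖ ≤ C) :
    ∃ x, Tendsto a 𝒰 (𝓝 x) := by
  have := FiniteDimensional.proper ℂ G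
  obtain ⟨x, -, hx⟩ := (isCompact_closedBall (0 : G) C).ultrafilter_le_nhds (𝒰.map a)
    (le_principal_iff.2 (mem_map.2 (h.mono fun k hk => mem_closedBall_zero_iff.2 hk)))
  exact ⟨x, hx⟩

theorem cb_montel {ι : Type} (𝒰 : Ultrafilter ι) {f : ι → C2 → ℂ} {U : Set C2} (hU : IsOpen U)
    {C : ℝ} (hf : ∀ᶠ k in 𝒰, DifferentiableOn ℂ (f k) U ∧ ∀ z ∈ U, ‖f k z‖ ≤ C) :
    ∃ u, AnalyticOnNhd ℂ u U ∧
      ∀ z ∈ U, ∀ w : ι → C2, Tendsto w 𝒰 (𝓝 z) → Tendsto (fun k => f k (w k)) 𝒰 (𝓝 (u z)) := by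
  have h1 : ∀ z, ∃ y, z ∈ U → Tendsto (fun k => f k z) 𝒰 (𝓝 y) := fun z => by
    by_cases hz : z ∈ U
    · obtain ⟨y, hy⟩ := cb_lim 𝒰 (hf.mono fun k hk => hk.2 z hz)
      exact ⟨y, fun _ => hy⟩
    · exact ⟨0, fun h => absurd h hz⟩
  choose u hu using h1
  refine ⟨u, P278F.analyticOnNhd_of_differentiableOn hU fun z hz => ?_, fun z hz w hw => ?_⟩
  · obtain ⟨R, hR, hRU⟩ := Metric.isOpen_iff.1 hU z hz
    obtain ⟨L, hL⟩ := cb_lim 𝒰 (a := fun k => fderiv ℂ (f k) z) (hf.mono fun k hk =>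
      P278F.norm_fderiv_le hR (hk.1.mono hRU) fun x hx => hk.2 x (hRU hx))
    refine (P278F.hasFDerivAt_of_sq (L := L) (C := 4 * C / R ^ 2) hR
      fun x hx => ?_).differentiableAt.differentiableWithinAt
    have h2 : Tendsto (fun k => fderiv ℂ (f k) z (x - z)) 𝒰 (𝓝 (L (x - z))) :=
      ((ContinuousLinearMap.apply ℂ ℂ (x - z)).continuous.tendsto L).comp hL
    exact le_of_tendsto (((hu x (hRU hx)).sub (hu z hz)).sub h2).norm (hf.mono fun k hk =>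
      P278F.second_order (hk.1.mono hRU) (fun x hx => hk.2 x (hRU hx)) hx)
  · obtain ⟨R, hR, hRU⟩ := Metric.isOpen_iff.1 hU z hz
    have h2 : Tendsto (fun k => f k (w k) - f k z) 𝒰 (𝓝 0) := by
      have h3 : Tendsto (fun k => 2 * C / R * ‖w k - z‖) 𝒰 (𝓝 0) := by
        simpa using (tendsto_iff_norm_sub_tendsto_zero.1 hw).const_mul (2 * C / R)
      refine squeeze_zero_norm' ?_ h3
      filter_upwards [hw (ball_mem_nhds z hR), hf] with k hk hf
      exact P278F.norm_sub_le_of_bound (hf.1.mono hRU) (fun x hx => hf.2 x (hRU hx)) hk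
    simpa using h2.add (hu z hz)

variable {M : Type} [TopologicalSpace M] [ChartedSpace C2 M] {f f' : M → ℂ} {p : M}

theorem cb_congr (h : HolAt f p) (h' : f =ᶠ[𝓝 p] f') : HolAt f' p := by
  refine AnalyticAt.congr h ?_
  have h1 : Tendsto (chartAt C2 p).symm (𝓝 (chartAt C2 p p)) (𝓝 p) :=
    (chartAt C2 p).tendsto_symm (mem_chart_source C2 p)
  exact h1.eventually h'

theorem cb_const (c : ℂ) (p : M) : HolAt (fun _ => c) p := analyticAt_const

theorem cb_add (h : HolAt f p) (h' : HolAt f' p) : HolAt (f + f') p := AnalyticAt.add h h'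

theorem cb_sub (h : HolAt f p) (h' : HolAt f' p) : HolAt (f - f') p := AnalyticAt.sub h h'

theorem cb_neg (h : HolAt f p) : HolAt (-f) p := AnalyticAt.neg h

theorem cb_mul (h : HolAt f p) (h' : HolAt f' p) : HolAt (f * f') p := AnalyticAt.mul h h'

theorem cb_smul (c : ℂ) (h : HolAt f p) : HolAt (c • f) p := AnalyticAt.const_smul h

theorem cb_exp (h : HolAt f p) : HolAt (fun q => Complex.exp (f q)) p := AnalyticAt.cexp h

theorem cb_cont (h : HolAt f p) : ContinuousAt f p := by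
  have h1 := h.continuousAt.comp ((chartAt C2 p).continuousAt (mem_chart_source C2 p))
  refine h1.congr ?_
  filter_upwards [chart_source_mem_nhds C2 p] with q hq
  simp [(chartAt C2 p).left_inv hq]

theorem cb_inv (h : HolAt f p) (h0 : f p ≠ 0) : HolAt f⁻¹ p :=
  AnalyticAt.inv h (by simpa using h0)

namespace Cov
variable (C : Cov M)

theorem cb_zpow_add (k m : ℤ) (p : M) : (C.g ^ (k + m)) p = (C.g ^ k) ((C.g ^ m) p) := by
  rw [zpow_add]; rfl

theorem cb_zpow_neg (k : ℤ) (p : M) : (C.g ^ (-k)) ((C.g ^ k) p) = p := by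
  rw [← C.cb_zpow_add, neg_add_cancel, zpow_zero]; rfl

theorem cb_zpow_neg' (k : ℤ) (p : M) : (C.g ^ k) ((C.g ^ (-k)) p) = p := by
  rw [← C.cb_zpow_add, add_neg_cancel, zpow_zero]; rfl

theorem cb_ind {P : ℤ → Prop} (h0 : P 0) (h : ∀ k, P k ↔ P (1 + k)) (k : ℤ) : P k := by
  induction k using Int.induction_on with
  | zero => exact h0
  | succ k ih => rw [add_comm]; exact (h k).1 ih
  | pred k ih => exact (h _).2 (by rwa [show 1 + (-(k : ℤ) - 1) = -k by ring])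

theorem cb_t (k : ℤ) (p : M) : C.t ((C.g ^ k) p) = C.t p + k := by
  refine cb_ind (P := fun k => C.t ((C.g ^ k) p) = C.t p + k) (by simp) (fun k => ?_) k
  rw [C.cb_zpow_add, zpow_one, C.shift]
  push_cast
  constructor <;> intro h <;> linarith

theorem cb_idx (k : ℤ) (p : M) : C.idx ((C.g ^ k) p) = ((C.idx p).1, (C.idx p).2 - k) := by
  refine cb_ind (P := fun k => C.idx ((C.g ^ k) p) = ((C.idx p).1, (C.idx p).2 - k)) (by simp)
    (fun k => ?_) k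
  rw [C.cb_zpow_add, zpow_one, C.idx_g, Prod.ext_iff, Prod.ext_iff]
  exact and_congr_right fun _ => by constructor <;> intro h <;> dsimp only at h ⊢ <;> omega

theorem cb_hol_g (k : ℤ) (f : M → ℂ) (p : M) :
    HolAt (f ∘ (C.g ^ k : M ≃ₜ M)) p ↔ HolAt f ((C.g ^ k) p) := by
  refine cb_ind (P := fun k => ∀ f : M → ℂ, HolAt (f ∘ (C.g ^ k : M ≃ₜ M)) p ↔
    HolAt f ((C.g ^ k) p)) (fun _ => Iff.rfl) (fun k => ⟨fun h f => ?_, fun h f => ?_⟩) k f
  · rw [C.cb_zpow_add, zpow_one, ← C.hol_g, ← h, zpow_add, zpow_one]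
    rfl
  · have h1 := h (f ∘ C.g.symm)
    rw [C.cb_zpow_add, zpow_one, ← C.hol_g, zpow_add, zpow_one] at h1
    have e1 : (f ∘ C.g.symm) ∘ C.g = f := funext fun q => by simp
    have e2 : (f ∘ C.g.symm) ∘ (C.g * C.g ^ k : M ≃ₜ M) = f ∘ (C.g ^ k : M ≃ₜ M) :=
      funext fun q => by simp
    rwa [e1, e2] at h1

theorem cb_src {i : C.I} : p ∈ (C.ch i).source ↔ (C.g ^ i.2) p ∈ (C.e i.1).source := by
  simp [ch, shiftCh]

theorem cb_app (i : C.I) (p : M) : C.ch i p = C.e i.1 ((C.g ^ i.2) p) := rfl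

theorem cb_tgt (i : C.I) : (C.ch i).target = ball 0 4 := by
  simp [ch, shiftCh, C.tgt]

theorem cb_hol {i : C.I} (hp : p ∈ (C.ch i).source) :
    HolAt f p ↔ AnalyticAt ℂ (f ∘ (C.ch i).symm) (C.ch i p) := by
  have h := C.hol i.1 _ (C.cb_src.1 hp) (f ∘ (C.g ^ (-i.2) : M ≃ₜ M))
  rw [C.cb_hol_g, C.cb_zpow_neg] at h
  rw [h, zpow_neg]
  rfl

theorem cb_open (i : C.I) (r : ℝ) : IsOpen (C.U i r) := by
  have := (C.ch i).isOpen_inter_preimage (isOpen_ball (x := (0 : C2)) (ε := r))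
  have e : C.U i r = (C.ch i).source ∩ C.ch i ⁻¹' ball 0 r := by
    ext p
    simp [U]
  rwa [e]

theorem cb_mem_idx (p : M) : p ∈ C.U (C.idx p) 1 := ⟨C.cb_src.2 (C.idx_mem p).1, (C.idx_mem p).2⟩

theorem cb_mono (i : C.I) {r r' : ℝ} (h : r ≤ r') : C.U i r ⊆ C.U i r' :=
  fun _ hp => ⟨hp.1, hp.2.trans_le h⟩

theorem cb_lev {i : C.I} {r : ℝ} (hp : p ∈ C.U i r) : |C.t p + i.2| ≤ C.R := by
  rw [← C.cb_t]
  exact C.t_bd _ _ (C.cb_src.1 hp.1)

theorem cb_shift {a : C.ι} {k m : ℤ} {r : ℝ} :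
    p ∈ C.U (a, k + m) r ↔ (C.g ^ m) p ∈ C.U (a, k) r := by
  simp only [U, mem_ofPred_eq, C.cb_src, C.cb_app, C.cb_zpow_add]

include C in
theorem cb_ev (h : HolAt f p) : ∀ᶠ q in 𝓝 p, HolAt f q := by
  have hp := (C.cb_mem_idx p).1
  filter_upwards [((C.ch _).continuousAt hp).eventually ((C.cb_hol hp).1 h).eventually_analyticAt,
    (C.ch _).open_source.mem_nhds hp] with q h1 h2
  exact (C.cb_hol h2).2 h1

theorem cb_symm {i : C.I} {r : ℝ} (hr : r ≤ 4) {z : C2} (hz : z ∈ ball (0 : C2) r) :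
    (C.ch i).symm z ∈ C.U i r ∧ C.ch i ((C.ch i).symm z) = z := by
  have h1 : z ∈ (C.ch i).target := C.cb_tgt i ▸ ball_subset_ball hr hz
  exact ⟨⟨(C.ch i).map_target h1, by rw [(C.ch i).right_inv h1]; exact mem_ball_zero_iff.1 hz⟩,
    (C.ch i).right_inv h1⟩

/-- Montel on one chart. -/
theorem cb_montel_ch {ι : Type} (𝒰 : Ultrafilter ι) (i : C.I) {r B : ℝ} (hr : r ≤ 4)
    {f : ι → M → ℂ} (hf : ∀ᶠ k in 𝒰, ∀ p ∈ C.U i r, HolAt (f k) p ∧ ‖f k p‖ ≤ B) :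
    ∃ F : M → ℂ, ∀ p ∈ C.U i r, HolAt F p ∧
      ∀ w : ι → M, Tendsto w 𝒰 (𝓝 p) → Tendsto (fun k => f k (w k)) 𝒰 (𝓝 (F p)) := by
  obtain ⟨u, h1, h2⟩ := cb_montel 𝒰 (f := fun k => f k ∘ (C.ch i).symm) (C := B)
    (isOpen_ball (x := 0) (ε := r)) (hf.mono fun k hk => ⟨fun z hz => by
      obtain ⟨k1, k2⟩ := C.cb_symm (i := i) hr hz
      have := (C.cb_hol k1.1).1 (hk _ k1).1
      rw [k2] at this
      exact this.differentiableAt.differentiableWithinAt, fun z hz => (hk _ (C.cb_symm hr hz).1).2⟩)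
  refine ⟨u ∘ C.ch i, fun p hp => ⟨(C.cb_hol hp.1).2 ?_, fun w hw => ?_⟩⟩
  · refine (h1 _ (mem_ball_zero_iff.2 hp.2)).congr ?_
    filter_upwards [(C.ch i).open_target.mem_nhds ((C.ch i).map_source hp.1)] with z hz
    simp [(C.ch i).right_inv hz]
  · refine (h2 _ (mem_ball_zero_iff.2 hp.2) _ (((C.ch i).continuousAt hp.1).tendsto.comp hw)).congr' ?_
    filter_upwards [hw ((C.ch i).open_source.mem_nhds hp.1)] with k hk
    simp [(C.ch i).left_inv hk]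

theorem cb_compact (i : C.I) {r : ℝ} (hr : r < 4) :
    IsCompact ((C.ch i).symm '' closedBall 0 r) :=
  (isCompact_closedBall 0 r).image_of_continuousOn ((C.ch i).continuousOn_symm.mono
    (C.cb_tgt i ▸ closedBall_subset_ball hr))

/-- Slabs are relatively compact. -/
theorem cb_slab (L : ℝ) : ∃ K, IsCompact K ∧ ∀ p, |C.t p| ≤ L → p ∈ K := by
  refine ⟨⋃ i ∈ (univ : Set C.ι) ×ˢ Icc (-⌈L + C.R⌉) ⌈L + C.R⌉, (C.ch i).symm '' closedBall 0 1,
    (finite_univ.prod (finite_Icc _ _)).isCompact_biUnion fun i _ => C.cb_compact i (by norm_num),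
    fun p hp => ?_⟩
  have h1 := C.cb_mem_idx p
  have h2 := abs_le.1 (C.cb_lev h1)
  have h3 := abs_le.1 hp
  have h4 := Int.le_ceil (L + C.R)
  refine mem_biUnion (x := C.idx p) ⟨mem_univ _, ?_, ?_⟩
    ⟨_, mem_closedBall_zero_iff.2 h1.2.le, (C.ch _).left_inv h1.1⟩
  · exact (Int.cast_le (R := ℝ)).1 (by push_cast; linarith)
  · exact (Int.cast_le (R := ℝ)).1 (by linarith)

theorem cb_pt {ι : Type} (𝒰 : Ultrafilter ι) {x : ι → M} {L : ℝ}
    (h : ∀ᶠ k in 𝒰, |C.t (x k)| ≤ L) : ∃ p, Tendsto x 𝒰 (𝓝 p) := by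
  obtain ⟨K, hK, h1⟩ := C.cb_slab L
  obtain ⟨p, -, hp⟩ := hK.ultrafilter_le_nhds (𝒰.map x)
    (le_principal_iff.2 (mem_map.2 (h.mono fun k hk => h1 _ hk)))
  exact ⟨p, hp⟩

end Cov

end Vale.Agent.P267
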