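import Vale.Agent.P267S.HV

/-! P267, solver part H: an approximate dual section from a bad functional. -/

open scoped Manifold ContDiff Topology BoundedContinuousFunction Real
open Filter Metric Set MeasureTheory

noncomputable section

namespace Vale.Agent.P267

theorem ha2_int (g : DD 1) {f : C2 → ℂ} (hf : ∀ z ∈ tsupport g.1, ContinuousAt f z) :
    Integrable fun z => g.1 z * f z := by
  have hc : IsCompact (tsupport g.1) :=
    (isCompact_closedBall (0 : C2) 1).of_isClosed_subset (isClosed_tsupport _)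
      (closure_minimal (fun z hz => mem_closedBall_zero_iff.2 (not_lt.1 fun h => hz (g.2.2 z h)))
        isClosed_closedBall)
  refine IntegrableOn.integrable_of_forall_notMem_eq_zero (ContinuousOn.integrableOn_compact hc
    fun z hz => (g.1.continuous.continuousAt.mul (hf z hz)).continuousWithinAt) fun z hz => ?_
  rw [image_eq_zero_of_notMem_tsupport hz, zero_mul]

theorem ha2_le (g : DD 1) {f : C2 → ℂ} {m : ℝ} (hf : ∀ z, ‖z‖ ≤ 1 → ‖f z‖ ≤ m) :
    ‖∫ z, g.1 z * f z‖ ≤ ‖g‖ * m * volume.real (closedBall (0 : C2) 1) := by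
  rw [← setIntegral_eq_integral_of_forall_compl_eq_zero (s := closedBall (0 : C2) 1) fun z hz => by
    rw [g.2.2 z (not_le.1 fun h => hz (mem_closedBall_zero_iff.2 h)), zero_mul]]
  refine norm_setIntegral_le_of_norm_le_const measure_closedBall_lt_top fun z hz => ?_
  rw [norm_mul]
  exact mul_le_mul (DD.le g z) (hf z (mem_closedBall_zero_iff.1 hz)) (norm_nonneg _)
    (norm_nonneg _)

set_option linter.unusedSectionVars false

variable {M : Type} [TopologicalSpace M] [ChartedSpace C2 M] [T2Space M]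

namespace Cov
variable (C : Cov M) {F : C.I → M → ℂ} {r B δ a b c₀ : ℝ} {p : M} {i j : C.I}

/-- `s i` from `Par.dual` for `l ∘ pu F i ∘ subtype` (`pu_dec`); `l (pu g) = l (pu (g - K g)) +
∫ g * s i`; if `‖s (x, 0)‖ < c₂` on the closed unit ball then `‖∫ g * s‖ ≤ c₂ * vol * ‖g‖`, take
`c₂ * vol < 1 / 4`; `chg` for `cmp` (integrability: continuous with compact support, `rt_an`). -/
theorem wk_of {K : DD 1 →ₗ[ℂ] DD b} (hK : Par a b c₀ K) (B : ℝ) (hδ : 0 ≤ δ) :
    ∃ c₁ c₂ c₃ : ℝ, 0 < c₂ ∧ ∀ (F : C.I → M → ℂ) (r : ℝ), C.Fr F r B → 1 < r → b < r → r ≤ 3 →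
    ∀ ε, 0 ≤ ε → ε ≤ 1 / 4 → C.Bad F K δ ε → ∃ s, C.Wk F δ a c₁ c₂ (c₃ * ε) s := by
  obtain ⟨c, hc, hdec⟩ := C.pu_dec B hδ
  obtain ⟨c', hc', hchg⟩ := C.chg
  have hV : 0 ≤ volume.real (closedBall (0 : C2) 1) := measureReal_nonneg
  refine ⟨c₀ * c, (4 * (volume.real (closedBall (0 : C2) 1) + 1))⁻¹, 1 + c' * B ^ 2,
    by positivity, fun F r hF h1 hb hr ε h0 h4 ⟨l, l1, l2, x, g₀, l3⟩ => ?_⟩
  choose s s1 s2 s3 using fun i => hK.dual (l ∘ₗ C.pu F i ∘ₗ (DD b).subtype) (c / C.wt δ 0 i)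
    (div_nonneg hc (C.wt_pos δ 0 i).le) (hdec F r b hF h1 hb hr l 0 l1 i)
  have key : ∀ i (g : DD 1),
      ∫ z, g.1 z * s i z = l (C.pu F i g.1) - l (C.pu F i (g.1 - (K g).1)) := fun i g => by
    rw [← s3, map_sub, map_sub, sub_sub_cancel]
    rfl
  refine ⟨s, s1, fun i z hz => (s2 i z hz).trans_eq (mul_div_assoc _ _ _).symm, ?_,
    fun i j g hg => ?_⟩
  · by_contra hn
    push Not at hn
    have a1 := ha2_le g₀ fun z hz => (hn x z hz).le
    have a2 := l2 (x, 0) g₀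
    have a3 : C.wt δ 0 (x, 0) = 1 := by simp [wt]
    have a4 : (4 * (volume.real (closedBall (0 : C2) 1) + 1))⁻¹ *
        volume.real (closedBall (0 : C2) 1) ≤ 1 / 4 := by
      rw [inv_mul_le_iff₀ (by positivity)]
      linarith
    rw [key, mul_assoc] at a1
    rw [a3, div_one] at a2
    have a5 := norm_sub_norm_le (l (C.pu F (x, 0) g₀.1))
      (l (C.pu F (x, 0) (g₀.1 - (K g₀).1)))
    have a6 := mul_le_mul_of_nonneg_left a4 (norm_nonneg g₀)
    have a7 := mul_le_mul_of_nonneg_right h4 (norm_nonneg g₀)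
    linarith
  · obtain ⟨g', b1, b2, b3⟩ := hchg F r B hF h1 hr i j g hg
    have i1 := ha2_int g (f := s i) fun z hz =>
      (s1 i z (mem_ball_zero_iff.2 ((hg hz).1.trans hK.one))).continuousAt
    have i2 := ha2_int g (f := fun z => C.rt F i j z * s j (C.ch j ((C.ch i).symm z)))
      fun z hz => by
        obtain ⟨d1, d2, d3⟩ := C.rt_an hF h1 (hg hz)
        exact d1.continuousAt.mul (ContinuousAt.comp (g := s j) (f := C.ch j ∘ (C.ch i).symm)
          (s1 j _ (mem_ball_zero_iff.2 (d3.trans hK.one))).continuousAt d2.continuousAt)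
    simp only [mul_sub]
    rw [integral_sub i1 i2, ← b3, key, key, b2, sub_sub_sub_cancel_left]
    refine (norm_sub_le _ _).trans ((add_le_add (l2 j g') (l2 i g)).trans ?_)
    have w1 := C.wt_pos δ 0 i
    have w2 := C.wt_pos δ 0 j
    have w3 : 0 ≤ c' * B ^ 2 := by positivity
    have w4 : ‖g'‖ / C.wt δ 0 j ≤ (1 + c' * B ^ 2) * ‖g‖ / C.wt δ 0 j :=
      div_le_div_of_nonneg_right (by nlinarith [norm_nonneg g]) w2.le
    have w5 : ‖g‖ / C.wt δ 0 i ≤ (1 + c' * B ^ 2) * ‖g‖ / C.wt δ 0 i :=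
      div_le_div_of_nonneg_right (by nlinarith [norm_nonneg g]) w1.le
    refine (add_le_add (mul_le_mul_of_nonneg_left w4 h0)
      (mul_le_mul_of_nonneg_left w5 h0)).trans_eq ?_
    ring

end Cov

end Vale.Agent.P267
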