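import Vale.Agent.P267S.HV
import Vale.Agent.P267S.HW

/-! P267, solver part H: the limit of approximate dual sections. -/

open scoped Manifold ContDiff Topology BoundedContinuousFunction Real
open Filter Metric Set MeasureTheory

noncomputable section

namespace Vale.Agent.P267

set_option linter.unusedSectionVars false

variable {M : Type} [TopologicalSpace M] [ChartedSpace C2 M] [T2Space M]

namespace Cov
variable (C : Cov M) {F : C.I → M → ℂ} {r B δ a b c₀ : ℝ} {p : M} {i j : C.I}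

theorem ha3_F {G : ℕ → C.I → M → ℂ} (hG : ∀ m, C.Fr (G m) r B) (hp : p ∈ C.U i r)
    (hF : Tendsto (fun m => G m i p) (hyperfilter ℕ) (𝓝 (F i p))) : F i p ≠ 0 ∧ ‖F i p‖ ≤ B := by
  refine ⟨fun h0 => ?_, le_of_tendsto' hF.norm fun m => ((hG m).bd i p hp).1⟩
  have h1 : (1 : ℝ) ≤ ‖F i p‖ * B := ge_of_tendsto' (hF.norm.mul_const B) fun m => by
    have h2 := mul_le_mul_of_nonneg_left ((hG m).bd i p hp).2 (norm_nonneg (G m i p))
    rwa [← norm_mul, mul_inv_cancel₀ ((hG m).ne i p hp), norm_one] at h2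
  rw [h0, norm_zero, zero_mul] at h1
  exact absurd h1 (by norm_num)

/-- The limits are compatible on the overlaps. -/
theorem ha3_cmp {G : ℕ → C.I → M → ℂ} {c₁ c₂ : ℝ} {ε : ℕ → ℝ} {s : ℕ → C.I → C2 → ℂ}
    {S : C.I → C2 → ℂ} (ha : 1 < a) (h1 : 1 < r) (hG : ∀ m, C.Fr (G m) r B)
    (hs : ∀ᶠ m in hyperfilter ℕ, C.Wk (G m) δ a c₁ c₂ (ε m) (s m))
    (hε : Tendsto ε (hyperfilter ℕ) (𝓝 0))
    (hF : ∀ i, ∀ p ∈ C.U i r, Tendsto (fun m => G m i p) (hyperfilter ℕ) (𝓝 (F i p)))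
    (hS : ∀ i, ∀ z ∈ ball (0 : C2) a, Tendsto (fun m => s m i z) (hyperfilter ℕ) (𝓝 (S i z)))
    {z : C2} (hz : z ∈ C.Ov i j) : S i z = C.rt F i j z * S j (C.ch j ((C.ch i).symm z)) := by
  obtain ⟨c, hc, hb⟩ := C.rt_bd
  obtain ⟨ρ, hρ, hsub⟩ := Metric.isOpen_iff.1 (C.isOpen_Ov i j) z hz
  have hin : ∀ {w : C2}, ‖w‖ < 1 → w ∈ ball (0 : C2) a := fun hw =>
    mem_ball_zero_iff.2 (hw.trans ha)
  have hi := C.cb_mono i h1.le (C.cb_symm (i := i) (by norm_num) (mem_ball_zero_iff.2 hz.1)).1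
  have hj := C.cb_mono j h1.le hz.2
  have t1 : Tendsto (fun m => C.rt (G m) i j z) (hyperfilter ℕ) (𝓝 (C.rt F i j z)) :=
    ((hF j _ hj).mul_const _).div ((hF i _ hi).mul_const _)
      (mul_ne_zero (C.ha3_F hG hi (hF i _ hi)).1 (C.kf_ne hj.1))
  have t2 := (hS i z (hin hz.1)).sub (t1.mul (hS j _ (hin hz.2.2)))
  refine sub_eq_zero.1 (norm_le_zero_iff.1 (le_of_forall_pos_le_add fun η hη => ?_))
  obtain ⟨e, he, hl'⟩ := hl (c₁ / C.wt δ 0 i + c * B ^ 2 * (c₁ / C.wt δ 0 j)) hρ hη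
    fun w hw => mem_ball_zero_iff.2 (hsub hw).1
  have t3 := hε.mul_const (1 / C.wt δ 0 i + 1 / C.wt δ 0 j)
  rw [zero_mul] at t3
  rw [zero_add]
  refine le_of_tendsto t2.norm ?_
  filter_upwards [hs, t3.eventually (ge_mem_nhds he)] with m hm hm'
  refine hl' (fun w => s m i w - C.rt (G m) i j w * s m j (C.ch j ((C.ch i).symm w)))
    (fun w hw => ?_) (fun w hw => ?_) fun g hg => ?_
  · obtain ⟨k1, k2, k3⟩ := C.rt_an (hG m) h1 (hsub hw)
    exact ((hm.an i w (hin (hsub hw).1)).sub (k1.mul (AnalyticAt.comp (g := s m j)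
      (f := C.ch j ∘ (C.ch i).symm) (hm.an j _ (hin k3)) k2))).differentiableAt.differentiableWithinAt
  · refine (norm_sub_le _ _).trans (add_le_add (hm.bd i w (hin (hsub hw).1)) ?_)
    rw [norm_mul]
    exact mul_le_mul (hb _ _ _ (hG m) h1 i j w (hsub hw)) (hm.bd j _ (hin (hsub hw).2.2))
      (norm_nonneg _) (by positivity)
  · exact (hm.cmp i j g (hg.trans hsub)).trans (mul_le_mul_of_nonneg_right hm' (norm_nonneg _))

/-- `cb_montel` for each `i` gives `S i`; the index `x` is constant along the ultrafilter and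
`cb_lim` gives a point where `S (x, 0) ≠ 0`. `F i p ≠ 0` since `‖(G m i p)⁻¹‖ ≤ B`. By `hl`
(`rt_an`, `rt_bd`) `S i z = rt F i j z * S j (..)` on `Ov i j`. The section is
`σ p = S (idx p) (ch (idx p) p) * F (idx p) p / kf (idx p) p`; growth from `kf_low`, `t_ch`; by
continuity `S (x, 0)` has a nonzero value in the open unit ball. -/
theorem not_noSec {G : ℕ → C.I → M → ℂ} {c₁ c₂ : ℝ} {ε : ℕ → ℝ} {s : ℕ → C.I → C2 → ℂ}
    (ha : 1 < a) (h1 : 1 < r) (hr : r ≤ 3) (hδ : 0 ≤ δ) (hc : 0 < c₂) (hG : ∀ m, C.Fr (G m) r B)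
    (hs : ∀ᶠ m in hyperfilter ℕ, C.Wk (G m) δ a c₁ c₂ (ε m) (s m))
    (hε : Tendsto ε (hyperfilter ℕ) (𝓝 0))
    (hF : ∀ i, ∀ p ∈ C.U i r, Tendsto (fun m => G m i p) (hyperfilter ℕ) (𝓝 (F i p))) :
    ¬C.NoSec F := by
  intro hN
  have hin : ∀ {w : C2}, ‖w‖ ≤ 1 → w ∈ ball (0 : C2) a := fun hw =>
    mem_ball_zero_iff.2 (hw.trans_lt ha)
  choose S hS hS' using fun i => cb_montel (hyperfilter ℕ) (f := fun m => s m i) isOpen_ball
    (hs.mono fun m hm => ⟨(hm.an i).differentiableOn, hm.bd i⟩)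
  have hS1 : ∀ i, ∀ z ∈ ball (0 : C2) a,
      Tendsto (fun m => s m i z) (hyperfilter ℕ) (𝓝 (S i z)) :=
    fun i z hz => hS' i z hz _ tendsto_const_nhds
  have hF' : ∀ i, ∀ p ∈ C.U i 1, F i p ≠ 0 ∧ ‖F i p‖ ≤ B := fun i p hp =>
    C.ha3_F hG (C.cb_mono i h1.le hp) (hF i p (C.cb_mono i h1.le hp))
  obtain ⟨σ, hσ⟩ : ∃ σ : M → ℂ, ∀ p, σ p =
      S (C.idx p) (C.ch (C.idx p) p) * F (C.idx p) p * (C.kf (C.idx p) p)⁻¹ := ⟨_, fun _ => rfl⟩
  have key : ∀ i, ∀ p ∈ C.U i 1, (C.kf i / F i * σ) p = S i (C.ch i p) := fun i p hp => by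
    have e := (C.ch i).left_inv hp.1
    have hj := C.cb_mem_idx p
    have k := C.ha3_cmp (i := i) (j := C.idx p) (z := C.ch i p) ha h1 hG hs hε hF hS1
      ⟨hp.2, by rwa [e]⟩
    have k1 := (hF' i p hp).1
    have k2 := C.kf_ne hj.1
    rw [k, rt, e]
    simp only [Pi.mul_apply, Pi.div_apply, hσ]
    field_simp
  obtain ⟨c, hc0, hk⟩ := C.kf_low
  have h0 : σ = 0 := by
    refine hN σ δ (fun i p hp => ?_) ⟨|c₁| * Real.exp (δ * C.R) * B * c, fun p => ?_⟩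
    · refine cb_congr (f := S i ∘ C.ch i) ((C.cb_hol hp.1).2 ((hS i _ (hin hp.2.le)).congr ?_)) ?_
      · filter_upwards [(C.ch i).open_target.mem_nhds ((C.ch i).map_source hp.1)] with z hz
        simp only [Function.comp_apply, (C.ch i).right_inv hz]
      · filter_upwards [(C.cb_open i 1).mem_nhds hp] with q hq using (key i q hq).symm
    · have hj := C.cb_mem_idx p
      have k1 : ‖S (C.idx p) (C.ch (C.idx p) p)‖ ≤ c₁ / C.wt δ 0 (C.idx p) :=
        le_of_tendsto (hS1 _ _ (hin hj.2.le)).norm (hs.mono fun m hm => hm.bd _ _ (hin hj.2.le))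
      have k2 : c₁ / C.wt δ 0 (C.idx p) ≤ |c₁| * Real.exp (δ * C.R) * Real.exp (δ * |C.t p|) := by
        rw [wt, neg_mul, Real.exp_neg, div_inv_eq_mul, mul_assoc, ← Real.exp_add, ← mul_add]
        refine mul_le_mul (le_abs_self _) (Real.exp_le_exp.2 (mul_le_mul_of_nonneg_left ?_ hδ))
          (Real.exp_pos _).le (abs_nonneg _)
        have k3 := abs_sub (C.t p + (C.idx p).2) (C.t p)
        rw [add_sub_cancel_left] at k3
        rw [Int.cast_zero, sub_zero]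
        linarith [C.cb_lev hj]
      have k4 := (hF' _ p hj).2
      have k5 := (norm_nonneg _).trans k4
      rw [hσ, norm_mul, norm_mul]
      refine (mul_le_mul (mul_le_mul (k1.trans k2) k4 (norm_nonneg _) (by positivity))
        (hk _ p (C.cb_mono _ (by norm_num) hj)) (norm_nonneg _) (by positivity)).trans_eq ?_
      ring
  obtain ⟨x, hx⟩ := Ultrafilter.eventually_exists_iff.1 (hs.mono fun m hm => hm.ne)
  obtain ⟨w, hw⟩ := hx.choice
  obtain ⟨z, hz⟩ := cb_lim (hyperfilter ℕ) (hw.mono fun m hm => hm.1)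
  have hz1 : ‖z‖ ≤ 1 := le_of_tendsto hz.norm (hw.mono fun m hm => hm.1)
  have hz2 : c₂ ≤ ‖S (x, 0) z‖ :=
    ge_of_tendsto (hS' (x, 0) z (hin hz1) w hz).norm (hw.mono fun m hm => hm.2)
  have hz3 : z ∈ closure (ball (0 : C2) 1) := by
    rwa [closure_ball _ one_ne_zero, mem_closedBall_zero_iff]
  obtain ⟨y, hy, hy'⟩ := ((mem_closure_iff_frequently.1 hz3).and_eventually
    ((hS (x, 0) z (hin hz1)).continuousAt.eventually_ne (norm_pos_iff.1 (hc.trans_le hz2)))).exists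
  obtain ⟨k1, k2⟩ := C.cb_symm (i := (x, 0)) (by norm_num) hy
  have k3 := key _ _ k1
  rw [k2, h0, mul_zero] at k3
  exact hy' k3.symm

end Cov

end Vale.Agent.P267
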