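import Vale.Agent.P267S.HA1
import Vale.Agent.P267S.HA2
import Vale.Agent.P267S.HA3

/-! P267, solver part H: the dual estimate. -/

open scoped Manifold ContDiff Topology BoundedContinuousFunction Real
open Filter Metric Set MeasureTheory

noncomputable section

namespace Vale.Agent.P267

set_option linter.unusedSectionVars false

variable {M : Type} [TopologicalSpace M] [ChartedSpace C2 M] [T2Space M]

namespace Cov
variable (C : Cov M) {F : C.I → M → ℂ} {r B δ a b c₀ : ℝ} {p : M} {i j : C.I}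

theorem apd {K : DD 1 →ₗ[ℂ] DD b} (hK : Par a b c₀ K) {G : ℕ → C.I → M → ℂ}
    (hG : ∀ n, C.Fr (G n) r B) (hN : C.NoLim G r) (hδ : 0 ≤ δ) (h1 : 1 < r) (hb : b < r)
    (hr : r ≤ 3) : ∃ K₀, 0 ≤ K₀ ∧ ∀ᶠ n in atTop, ∀ κ, C.APd (G n) K δ κ K₀ := by
  by_contra hc
  have h2 : ∀ m : ℕ, ∃ n ≥ m, ∃ k, C.Bad (C.hsh k (G n)) K δ ((m : ℝ) + 4)⁻¹ := fun m => by
    have h3 : ¬∀ᶠ n in atTop, ∀ κ, C.APd (G n) K δ κ ((m : ℝ) + 4) := fun h =>
      hc ⟨_, by positivity, h⟩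
    rw [eventually_atTop] at h3
    push Not at h3
    obtain ⟨n, hn, κ, hκ⟩ := h3 m
    exact ⟨n, hn, C.bad_of (by positivity) hδ hκ⟩
  choose φ hφ k hk using h2
  obtain ⟨c₁, c₂, c₃, hc₂, hw⟩ := C.wk_of hK B hδ
  have h4 : ∀ m : ℕ, ((m : ℝ) + 4)⁻¹ ≤ 1 / 4 := fun m => by
    rw [one_div]
    exact inv_anti₀ (by norm_num) (by linarith [(Nat.cast_nonneg m : (0 : ℝ) ≤ m)])
  choose s hs using fun m => hw _ r ((hG (φ m)).hsh (k m)) h1 hb hr _ (by positivity) (h4 m) (hk m)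
  have h5 : ∀ i p, ∃ y, p ∈ C.U i r →
      Tendsto (fun m => C.hsh (k m) (G (φ m)) i p) (hyperfilter ℕ) (𝓝 y) := fun i p => by
    by_cases hp : p ∈ C.U i r
    · obtain ⟨y, hy⟩ := cb_lim (hyperfilter ℕ) (a := fun m => C.hsh (k m) (G (φ m)) i p)
        (.of_forall fun m => (((hG (φ m)).hsh (k m)).bd i p hp).1)
      exact ⟨y, fun _ => hy⟩
    · exact ⟨0, fun h => absurd h hp⟩
  choose F hF using h5
  have h6 : Tendsto (fun m : ℕ => c₃ * ((m : ℝ) + 4)⁻¹) atTop (𝓝 0) := by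
    simpa using ((tendsto_atTop_add_const_right _ 4
      tendsto_natCast_atTop_atTop).inv_tendsto_atTop).const_mul c₃
  exact C.not_noSec hK.one h1 hr hδ hc₂ (fun m => (hG (φ m)).hsh (k m)) (.of_forall hs)
    (h6.mono_left Nat.hyperfilter_le_atTop) hF
    (hN φ k F (tendsto_atTop_mono hφ tendsto_id) hF)

end Cov

end Vale.Agent.P267
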