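import Vale.Agent.P267S.H0

/-! P267, solver part H: rules for the exterior derivative of forms of type (0,1). -/

open scoped Manifold ContDiff Topology BoundedContinuousFunction Real
open Filter Metric Set MeasureTheory

noncomputable section

namespace Vale.Agent.P267

theorem hc_ee (a : C2 →L[ℝ] ℂ) (k : Fin 2) : ‖a (ee k)‖ ≤ ‖a‖ := by
  have := a.le_opNorm (ee k)
  rwa [Pi.norm_single, norm_one, mul_one] at this

theorem hc_w2 {a b : C2 →L[ℝ] ℂ} (ha : Anti a) (hb : Anti b) (T : C2 →L[ℂ] C2) :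
    w2 (a.comp (T.restrictScalars ℝ)) (b.comp (T.restrictScalars ℝ))
      = (starRingEnd ℂ) T.det * w2 a b := by
  have e : T.det = T (ee 0) 0 * T (ee 1) 1 - T (ee 1) 0 * T (ee 0) 1 := by
    rw [ContinuousLinearMap.det, ← LinearMap.det_toMatrix', Matrix.det_fin_two]
    simp
  simp only [w2, ContinuousLinearMap.comp_apply, ContinuousLinearMap.coe_restrictScalars']
  rw [AD_anti ha (T _), AD_anti ha (T (ee 1)), AD_anti hb (T _), AD_anti hb (T (ee 0)), e]
  simp only [Fin.sum_univ_two, map_sub, map_mul]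
  ring

theorem w2_le (a b : C2 →L[ℝ] ℂ) : ‖w2 a b‖ ≤ 2 * ‖a‖ * ‖b‖ := by
  have h : ∀ k l, ‖a (ee k) * b (ee l)‖ ≤ ‖a‖ * ‖b‖ := fun k l =>
    (norm_mul_le _ _).trans (mul_le_mul (hc_ee a k) (hc_ee b l) (norm_nonneg _) (norm_nonneg _))
  refine (norm_sub_le _ _).trans ?_
  linarith [h 0 1, h 1 0]

theorem anti_le {a : C2 →L[ℝ] ℂ} (h : Anti a) {m : ℝ} (hm : ∀ k, ‖a (ee k)‖ ≤ m) :
    ‖a‖ ≤ 2 * m := by
  have h0 : 0 ≤ m := (norm_nonneg _).trans (hm 0)
  refine ContinuousLinearMap.opNorm_le_bound _ (by positivity) fun v => ?_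
  have h1 : ∀ j, ‖(starRingEnd ℂ) (v j) * a (ee j)‖ ≤ m * ‖v‖ := fun j => by
    rw [norm_mul, RCLike.norm_conj, mul_comm]
    exact mul_le_mul (hm j) (norm_le_pi_norm v j) (norm_nonneg _) h0
  rw [AD_anti h v, Fin.sum_univ_two]
  refine (norm_add_le _ _).trans ?_
  linarith [h1 0, h1 1]

set_option linter.unusedSectionVars false

variable {M : Type} [TopologicalSpace M] [ChartedSpace C2 M] [T2Space M]

namespace Cov
variable (C : Cov M) {F : C.I → M → ℂ} {r B δ a b c₀ : ℝ} {p : M} {i j : C.I}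

variable {P : OpenPartialHomeomorph M C2} {α β : M → C2 →L[ℝ] ℂ} {f : M → ℂ}

theorem curl_cu (z : C2) : C.curl P α z = cu (fun k w => C.cmp P α w (ee k)) z := rfl

variable {C}

theorem hc_d (hP : IsCh P) (hp : p ∈ P.source) (h : C.SmF α p) (v : C2) :
    DifferentiableAt ℝ (fun w => C.cmp P α w v) (P p) :=
  (h.cmp_sm hP hp v).self_of_nhds.differentiableAt (by simp)

theorem hc_zero (z : C2) : C.curl P (fun _ => 0) z = 0 := by
  have e : ∀ v u, dbar (fun w => C.cmp P (fun _ => 0) w v) z u = 0 := fun v u => by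
    rw [show (fun w => C.cmp P (fun _ => 0) w v) = fun _ => 0 from rfl, ac_app]
    simp
  rw [curl, e, e, sub_self]

theorem curl_congr (hp : p ∈ P.source) (e : α =ᶠ[𝓝 p] β) :
    C.curl P α (P p) = C.curl P β (P p) := by
  have k : ∀ v, dbar (fun w => C.cmp P α w v) (P p) = dbar (fun w => C.cmp P β w v) (P p) :=
    fun v => AD_congr ((AD_cmp (C := C) hp e).mono fun w hw => by simp only [hw])
  rw [curl, curl, k, k]

theorem curl_add (hP : IsCh P) (hp : p ∈ P.source) (h : C.SmF α p) (h' : C.SmF β p) :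
    C.curl P (fun q => α q + β q) (P p) = C.curl P α (P p) + C.curl P β (P p) := by
  have k : ∀ v u, dbar (fun w => C.cmp P (fun q => α q + β q) w v) (P p) u =
      dbar (fun w => C.cmp P α w v) (P p) u + dbar (fun w => C.cmp P β w v) (P p) u :=
    fun v u => dbar_add (hc_d hP hp h v) (hc_d hP hp h' v) u
  rw [curl, curl, curl, k, k]
  ring

theorem curl_sub (hP : IsCh P) (hp : p ∈ P.source) (h : C.SmF α p) (h' : C.SmF β p) :
    C.curl P (fun q => α q - β q) (P p) = C.curl P α (P p) - C.curl P β (P p) := by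
  have k : ∀ v u, dbar (fun w => C.cmp P (fun q => α q - β q) w v) (P p) u =
      dbar (fun w => C.cmp P α w v) (P p) u - dbar (fun w => C.cmp P β w v) (P p) u :=
    fun v u => dbar_sub (hc_d hP hp h v) (hc_d hP hp h' v) u
  rw [curl, curl, curl, k, k]
  ring

theorem curl_sum (hP : IsCh P) (hp : p ∈ P.source) {ι : Type} (W : Finset ι)
    {γ : ι → M → C2 →L[ℝ] ℂ} (h : ∀ x ∈ W, C.SmF (γ x) p) :
    C.curl P (fun q => ∑ x ∈ W, γ x q) (P p) = ∑ x ∈ W, C.curl P (γ x) (P p) := by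
  classical
  induction W using Finset.induction_on with
  | empty => simpa only [Finset.sum_empty] using hc_zero _
  | insert x W hx ih =>
    have h1 : ∀ y ∈ W, C.SmF (γ y) p := fun y hy => h y (Finset.mem_insert_of_mem hy)
    simp only [Finset.sum_insert hx]
    rw [curl_add hP hp (h x (Finset.mem_insert_self _ _)) (C.smF_sum W h1), ih h1]

theorem curl_smul (hP : IsCh P) (hp : p ∈ P.source) (hf : SmAt f p) (h : C.SmF α p) :
    C.curl P (fun q => f q • α q) (P p) = f p * C.curl P α (P p) +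
      w2 (C.cmp P (C.db f) (P p)) (C.cmp P α (P p)) := by
  have d : DifferentiableAt ℝ (f ∘ P.symm) (P p) :=
    ((hP.sm p hp f).1 hf).self_of_nhds.differentiableAt (by simp)
  have k : ∀ v u, dbar (fun w => C.cmp P (fun q => f q • α q) w v) (P p) u =
      dbar (f ∘ P.symm) (P p) u * C.cmp P α (P p) v
        + (f ∘ P.symm) (P p) * dbar (fun w => C.cmp P α w v) (P p) u :=
    fun v u => dbar_mul d (hc_d hP hp h v) u
  rw [curl, curl, k, k, C.cmp_db hP hp hf, w2, Function.comp_apply, P.left_inv hp]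
  ring

theorem curl_hol (hP : IsCh P) (hp : p ∈ P.source) (hf : HolAt f p) (h : C.SmF α p) :
    C.curl P (fun q => f q • α q) (P p) = f p * C.curl P α (P p) := by
  rw [curl_smul hP hp hf.smAt h, C.ac_cmp hp (C.db f), C.db_hol hf]
  simp [w2]

theorem curl_sm (hP : IsCh P) (hp : p ∈ P.source) (h : C.SmF α p) :
    SmAt (fun q => C.curl P α (P q)) p := by
  refine hP.sm_fun hp (F := C.curl P α) ?_
  filter_upwards [h.cmp_sm hP hp (ee 0), h.cmp_sm hP hp (ee 1)] with z k0 k1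
  exact (AD_sm k1 _).sub (AD_sm k0 _)

theorem hc_term (hi : p ∈ (C.ch i).source) {h : M → ℂ} (hf : SmAt f p) (hh : SmAt h p) :
    C.curl (C.ch i) (fun q => f q • C.db h q) (C.ch i p) * (starRingEnd ℂ) (C.kf (C.idx p) p)
      = (starRingEnd ℂ) (C.kf i p) * w2 (C.db f p) (C.db h p) := by
  have h0 : C.Prim (C.db h) h p := ⟨hh, .of_forall fun _ => rfl⟩
  rw [curl_smul (C.isCh i) hi hf (smF_db hh), (h0.curl (C.isCh i) hi).self_of_nhds, mul_zero,
    zero_add, C.ac_cmp hi, C.ac_cmp hi, hc_w2 (smF_db hf).anti (smF_db hh).anti,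
    C.kf_tr hi (C.ac_src p), map_mul]
  ring

/-- `AD_ind`; for `f • db h` both sides are `w2` of the components (`curl_smul`, `Prim.curl`), and
`w2 (a ∘ T) (b ∘ T) = conj (det T) * w2 a b` for antilinear `a`, `b`; `ac_back`, `kf_tr`. -/
theorem curl_tr (hi : p ∈ (C.ch i).source) (hj : p ∈ (C.ch j).source) (h : C.SmF α p) :
    C.curl (C.ch i) α (C.ch i p) * (starRingEnd ℂ) (C.kf j p) =
      C.curl (C.ch j) α (C.ch j p) * (starRingEnd ℂ) (C.kf i p) := by
  refine (AD_ind (Q := fun α => C.SmF α p ∧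
    C.curl (C.ch i) α (C.ch i p) * (starRingEnd ℂ) (C.kf j p) =
      C.curl (C.ch j) α (C.ch j p) * (starRingEnd ℂ) (C.kf i p)) h (fun α β e k => ?_)
    ⟨smF_zero, ?_⟩ fun f h α hf hh k => ?_).2
  · rw [curl_congr hi e, curl_congr hj e]
    exact ⟨k.1.congr e.symm, k.2⟩
  · have e : ∀ (P : OpenPartialHomeomorph M C2) z, C.curl P 0 z = 0 := fun P z => hc_zero z
    rw [e, e, zero_mul, zero_mul]
  · have h1 : C.SmF (fun q => f q • C.db h q) p := (smF_db hh).smul hf
    refine ⟨h1.add k.1, ?_⟩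
    have h2 : (starRingEnd ℂ) (C.kf (C.idx p) p) ≠ 0 :=
      (map_ne_zero _).2 (C.kf_ne (C.ac_src p))
    rw [curl_add (C.isCh i) hi h1 k.1, curl_add (C.isCh j) hj h1 k.1, add_mul, add_mul, k.2]
    congr 1
    refine mul_right_cancel₀ h2 ?_
    rw [mul_right_comm, hc_term hi hf hh, mul_right_comm _ _ ((starRingEnd ℂ) (C.kf (C.idx p) p)),
      hc_term hj hf hh]
    ring

end Cov

end Vale.Agent.P267
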