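import Vale.Agent.P267S.HC
import Vale.Agent.P267S.HW

/-! P267, solver part H: local primitives in the limit. -/

open scoped Manifold ContDiff Topology BoundedContinuousFunction Real
open Filter Metric Set MeasureTheory

noncomputable section

namespace Vale.Agent.P267

set_option linter.unusedSectionVars false

variable {M : Type} [TopologicalSpace M] [ChartedSpace C2 M] [T2Space M]

namespace Cov
variable (C : Cov M) {F : C.I → M → ℂ} {r B δ a b c₀ : ℝ} {p : M} {i j : C.I}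

theorem hz_sm {β : M → C2 →L[ℝ] ℂ} (hr : r ≤ 3) (h : ∀ p ∈ C.U j r, C.SmF β p) (k : Fin 2) :
    ContDiffOn ℝ ∞ (fun w => C.cmp (C.ch j) β w (ee k)) (ball 0 r) := fun z hz => by
  obtain ⟨h1, h2⟩ := C.symm_mem_U j (by linarith : r ≤ 4) (mem_ball_zero_iff.1 hz)
  have := ((h _ h1).cmp_sm (C.isCh j) h1.1 (ee k)).self_of_nhds
  rw [h2] at this
  exact this.contDiffWithinAt

theorem hz_loc {r' : ℝ} (h0 : 0 < r') (hr' : r' < r) (hr : r ≤ 3) : ∃ c : ℝ, 0 ≤ c ∧
    ∃ V : C.I → (M → C2 →L[ℝ] ℂ) → M → ℂ, (∀ j p, V j 0 p = 0) ∧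
      ∀ j β, (∀ p ∈ C.U j r, C.SmF β p) → (∀ p ∈ C.U j r', SmAt (V j β) p) ∧
        (∀ ε, (∀ p ∈ C.U j r, ‖C.curl (C.ch j) β (C.ch j p)‖ ≤ ε) →
          ∀ p ∈ C.U j r', ‖C.db (V j β) p - β p‖ ≤ c * ε) ∧
        ∀ β', (∀ p ∈ C.U j r, C.SmF β' p) → ∀ m, (∀ p ∈ C.U j r, ‖β p - β' p‖ ≤ m) →
          ∀ p ∈ C.U j r', ‖V j β p - V j β' p‖ ≤ c * m := by
  obtain ⟨L, hL, hn⟩ := C.cmp_norm
  obtain ⟨c, hc, S, S0, hS⟩ := dolS h0 hr'
  refine ⟨2 * L * c, by positivity,
    fun j β => S (fun k w => C.cmp (C.ch j) β w (ee k)) ∘ C.ch j, fun j p => ?_, fun j β hβ => ?_⟩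
  · have : (fun (k : Fin 2) w => C.cmp (C.ch j) 0 w (ee k)) = 0 := rfl
    simp only [Function.comp, this, S0, Pi.zero_apply]
  obtain ⟨s1, s2, s3⟩ := hS _ (C.hz_sm hr hβ)
  have sm : ∀ p ∈ C.U j r', SmAt (S (fun k w => C.cmp (C.ch j) β w (ee k)) ∘ C.ch j) p :=
    fun p hp => (C.isCh j).sm_fun hp.1 (.of_forall fun _ => s1.contDiffAt)
  refine ⟨sm, fun ε hε p hp => ?_, fun β' hβ' m hm p hp => ?_⟩
  · have hp3 := C.U_mono j (hr'.le.trans hr) hp
    have h1 := s2 ε fun z hz => by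
      obtain ⟨k1, k2⟩ := C.symm_mem_U j (by linarith : r ≤ 4) (mem_ball_zero_iff.1 hz)
      have := hε _ k1
      rwa [k2, C.curl_cu] at this
    set v := S (fun k w => C.cmp (C.ch j) β w (ee k)) ∘ C.ch j with hv
    have hF : C.SmF (C.db v - β) p := (smF_db (sm p hp)).sub (hβ p (C.U_mono j hr'.le hp))
    have hA : Anti (C.cmp (C.ch j) (C.db v - β) (C.ch j p)) := fun e w => by
      rw [C.ac_cmp hp.1]
      simp only [ContinuousLinearMap.comp_apply, ContinuousLinearMap.coe_restrictScalars', map_smul]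
      exact hF.anti e _
    have e1 : dbar (v ∘ (C.ch j).symm) (C.ch j p) =
        dbar (S fun k w => C.cmp (C.ch j) β w (ee k)) (C.ch j p) := by
      refine ac_congr ?_
      filter_upwards [(C.ch j).open_target.mem_nhds ((C.ch j).map_source hp.1)] with w hw
      simp only [hv, Function.comp, (C.ch j).right_inv hw]
    have h2 := anti_le hA (m := c * ε) fun k => by
      have e2 : C.cmp (C.ch j) (C.db v - β) (C.ch j p) (ee k) =
          C.cmp (C.ch j) (C.db v) (C.ch j p) (ee k) - C.cmp (C.ch j) β (C.ch j p) (ee k) := rfl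
      rw [e2, C.cmp_db (C.isCh j) hp.1 (sm p hp), e1]
      exact h1 k _ (mem_ball_zero_iff.2 hp.2)
    have h3 := (hn j (C.db v - β) p hp3).2
    calc _ ≤ _ := h3
      _ ≤ L * (2 * (c * ε)) := mul_le_mul_of_nonneg_left h2 hL.le
      _ = _ := by ring
  · have hm0 : 0 ≤ m := (norm_nonneg _).trans (hm p (C.U_mono j hr'.le hp))
    have h1 := s3 _ (C.hz_sm hr hβ') (L * m) (fun k z hz => by
      obtain ⟨k1, k2⟩ := C.symm_mem_U j (by linarith : r ≤ 4) (mem_ball_zero_iff.1 hz)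
      have k3 := (hn j (β - β') _ (C.U_mono j hr k1)).1
      rw [k2] at k3
      have k4 := (C.cmp (C.ch j) (β - β') z).le_opNorm (ee k)
      rw [show ‖ee k‖ = 1 by simp [Pi.norm_single], mul_one] at k4
      exact k4.trans (k3.trans (mul_le_mul_of_nonneg_left (hm _ k1) hL.le))) _
      (mem_ball_zero_iff.2 hp.2)
    refine h1.trans ?_
    nlinarith [mul_nonneg (mul_nonneg hL.le hc) hm0]

/-- `A j m k w = cmp (ch j) (α j - F j • η m) w (ee k)`, `u j m = S (A j m)` from `dolS` is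
uniformly Cauchy on the ball `r'` (`cmp_norm`), with limit `u j`; `f j = u j ∘ ch j / F j`. For
`p ∈ U i r' ∩ U j r'` take a primitive `a` from `Dat.cl`;
`h m = u i m ∘ ch i - F i / F j * u j m ∘ ch j - a` has `db (h m) → 0` uniformly near `p`
(`cmp_db`, `anti_le`, `db_mul`, `db_hol`), so `weierM`, `Prim.add_hol`, `Prim.congr`. -/
theorem fin_sol {r' : ℝ} (B : ℝ) (h1 : 1 < r') (hr' : r' < r) (hr : r ≤ 3) (hδ : 0 ≤ δ) :
    ∃ c : ℝ, 0 ≤ c ∧ ∀ (F : C.I → M → ℂ), C.Fr F r B → ∀ κ D α t, C.Dat F r δ κ D α →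
    C.Seq F r δ κ t α → ∃ f : C.I → M → ℂ,
      (∀ i, ∀ p ∈ C.U i r', ‖f i p‖ ≤ c * (D + t) * C.wt δ κ i) ∧
      ∀ i j, ∀ p ∈ C.U i r' ∩ C.U j r', C.Prim (C.df F α i j) (F i * (f i - f j)) p := by
  obtain ⟨c, hc, V, V0, hV⟩ := C.hz_loc (one_pos.trans h1) hr' hr
  refine ⟨|B| * (2 * c), by positivity, ?_⟩
  rintro F hF κ D α t hD ⟨η, τ, e1, e2, e3, e4, e5, e6⟩
  set β : C.I → ℕ → M → C2 →L[ℝ] ℂ := fun j m q => α j q - F j q • η m q with hβ
  have sβ : ∀ j m, ∀ p ∈ C.U j r, C.SmF (β j m) p := fun j m p hp =>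
    (hD.sm j p hp).sub (e1 m j p hp)
  have ht : 0 ≤ t := by simpa using e5 0
  have hτ : Summable τ := summable_of_sum_range_le e4 e5
  have hτt : ∑' k, τ k ≤ t := Real.tsum_le_of_sum_range_le e4 e5
  have st : ∀ j, ∀ p ∈ C.U j r', ∀ m, dist (V j (β j m) p) (V j (β j (m + 1)) p) ≤
      c * C.wt δ κ j * τ m := fun j p hp m => by
    rw [dist_eq_norm]
    refine ((hV j _ (sβ j m)).2.2 _ (sβ j (m + 1)) (τ m * C.wt δ κ j) (fun q hq => ?_) p hp).trans
      (le_of_eq (by ring))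
    simpa only [hβ, sub_sub_sub_cancel_left] using e3 m j q hq
  set u : C.I → M → ℂ := fun j p => limUnder atTop fun m => V j (β j m) p with hu
  have tl : ∀ j, ∀ p ∈ C.U j r', ∀ m, ‖V j (β j m) p - u j p‖ ≤
      c * C.wt δ κ j * ∑' k, τ (m + k) := fun j p hp m => by
    have hs := hτ.mul_left (c * C.wt δ κ j)
    have := dist_le_tsum_of_dist_le_of_tendsto _ (st j p hp) hs
      (cauchySeq_of_dist_le_of_summable _ (st j p hp) hs).tendsto_limUnder m
    rwa [dist_eq_norm, tsum_mul_left] at this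
  have tl0 : ∀ j, ∀ ε > 0, ∀ᶠ m in atTop, ∀ p ∈ C.U j r', ‖V j (β j m) p - u j p‖ ≤ ε :=
    fun j ε hε => by
    have h2 := (tendsto_sum_nat_add τ).const_mul (c * C.wt δ κ j)
    rw [mul_zero] at h2
    filter_upwards [h2.eventually_le_const hε] with m hm p hp
    refine (tl j p hp m).trans ?_
    simpa only [add_comm m] using hm
  refine ⟨fun j p => u j p / F j p, fun j p hp => ?_, fun i j p hp => ?_⟩
  · have hw := (C.wt_pos δ κ j).le
    have k1 := (hV j _ (sβ j 0)).2.2 0 (fun _ _ => smF_zero) ((D + t) * C.wt δ κ j)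
      (fun q hq => by
        have k2 := (hD.bd j q hq).trans (mul_le_mul_of_nonneg_left
          (C.wt_mono (by linarith : δ ≤ 2 * δ) κ j) hD.pos)
        rw [Pi.zero_apply, sub_zero, add_mul]
        exact (norm_sub_le _ _).trans (add_le_add k2 (e2 j q hq))) p hp
    rw [V0, sub_zero] at k1
    have k3 := tl j p hp 0
    simp only [zero_add] at k3
    have k4 : ‖u j p‖ ≤ 2 * c * (D + t) * C.wt δ κ j := by
      have k5 := norm_sub_norm_le (u j p) (V j (β j 0) p)
      rw [norm_sub_rev] at k5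
      have k6 := mul_le_mul_of_nonneg_left hτt (mul_nonneg hc hw)
      nlinarith [mul_nonneg (mul_nonneg hc hw) hD.pos]
    have k7 := (hF.bd j p (C.U_mono j hr'.le hp)).2.trans (le_abs_self B)
    beta_reduce
    rw [div_eq_inv_mul, norm_mul]
    exact (mul_le_mul k7 k4 (norm_nonneg _) (abs_nonneg _)).trans (le_of_eq (by ring))
  · have sub : ∀ q ∈ C.U i r' ∩ C.U j r', q ∈ C.U i r ∩ C.U j r := fun q hq =>
      ⟨C.U_mono i hr'.le hq.1, C.U_mono j hr'.le hq.2⟩
    obtain ⟨a, ha⟩ := hD.cl i j p (sub p hp)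
    have hO : C.U i r' ∩ C.U j r' ∈ 𝓝 p := ((C.isOpen_U i r').inter (C.isOpen_U j r')).mem_nhds hp
    have hB : ∀ q ∈ C.U i r' ∩ C.U j r', ‖F i q / F j q‖ ≤ B ^ 2 := fun q hq => by
      rw [div_eq_mul_inv, norm_mul, sq]
      have k1 := (hF.bd i q (sub q hq).1).1
      exact mul_le_mul k1 (hF.bd j q (sub q hq).2).2 (norm_nonneg _) ((norm_nonneg _).trans k1)
    have hH : HolAt (u i - F i / F j * u j - a) p := by
      refine C.weierM (h := fun m => V i (β i m) - F i / F j * V j (β j m) - a)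
        (inter_mem hO ha.ev) (fun m q hq => ?_) fun ε hε => ?_
      · exact (((hV i _ (sβ i m)).1 q hq.1.1).sub
          ((hF.hol i j q (sub q hq.1)).smAt.mul ((hV j _ (sβ j m)).1 q hq.1.2))).sub hq.2.1
      have hε' : 0 < ε / ((1 + B ^ 2) * (1 + c)) := by positivity
      have he : (1 + B ^ 2) * (1 + c) * (ε / ((1 + B ^ 2) * (1 + c))) = ε := by field_simp
      generalize ε / ((1 + B ^ 2) * (1 + c)) = e at hε' he
      filter_upwards [tl0 i e hε', tl0 j e hε', e6 i e hε', e6 j e hε'] with m m1 m2 m3 m4 q hq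
      have b1 := hB q hq.1
      have b2 : 0 ≤ B ^ 2 := sq_nonneg B
      constructor
      · have k1 : (V i (β i m) - F i / F j * V j (β j m) - a) q - (u i - F i / F j * u j - a) q =
            (V i (β i m) q - u i q) - F i q / F j q * (V j (β j m) q - u j q) := by
          simp only [Pi.sub_apply, Pi.mul_apply, Pi.div_apply]
          ring
        rw [k1]
        refine (norm_sub_le _ _).trans ?_
        rw [norm_mul]
        have k2 := mul_le_mul b1 (m2 q hq.1.2) (norm_nonneg _) b2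
        have k3 := m1 q hq.1.1
        nlinarith [mul_nonneg (mul_nonneg b2 hc) hε'.le, mul_nonneg hc hε'.le]
      · have s1 := (hV i _ (sβ i m)).1 q hq.1.1
        have s2 := (hV j _ (sβ j m)).1 q hq.1.2
        have s3 := hF.hol i j q (sub q hq.1)
        have k1 : C.db (V i (β i m) - F i / F j * V j (β j m) - a) q =
            (C.db (V i (β i m)) q - β i m q) -
              (F i q / F j q) • (C.db (V j (β j m)) q - β j m q) := by
          rw [C.db_sub (s1.sub (s3.smAt.mul s2)) hq.2.1, C.db_sub s1 (s3.smAt.mul s2),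
            C.db_mul s3.smAt s2, C.db_hol s3, hq.2.2.self_of_nhds,
            show V j (β j m) q • (0 : C2 →L[ℝ] ℂ) = 0 by ext1 v; simp]
          simp only [hβ, df, smul_sub, smul_smul, add_zero, Pi.div_apply,
            div_mul_cancel₀ _ (hF.ne j q (sub q hq.1).2)]
          abel
        rw [k1]
        refine (norm_sub_le _ _).trans ?_
        rw [norm_smul]
        have k2 := mul_le_mul b1 ((hV j _ (sβ j m)).2.1 e m4 q hq.1.2) (norm_nonneg _) b2
        have k3 := (hV i _ (sβ i m)).2.1 e m3 q hq.1.1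
        nlinarith [mul_nonneg b2 hε'.le]
    refine (ha.add_hol hH).congr (EventuallyEq.refl _ _) (mem_of_superset hO fun q hq => ?_)
    have k1 := hF.ne i q (sub q hq).1
    simp only [mem_ofPred_eq, Pi.add_apply, Pi.sub_apply, Pi.mul_apply, Pi.div_apply]
    field_simp
    ring

end Cov

end Vale.Agent.P267
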