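import Vale.Agent.P267S.HA
import Vale.Agent.P267S.HK
import Vale.Agent.P267S.HI
import Vale.Agent.P267S.HZ

/-! P267, solver part H: the vanishing of the second cohomology with decay. -/

open scoped Manifold ContDiff Topology BoundedContinuousFunction Real
open Filter Metric Set MeasureTheory

noncomputable section

namespace Vale.Agent.P267

set_option linter.unusedSectionVars false

variable {M : Type} [TopologicalSpace M] [ChartedSpace C2 M] [T2Space M]

namespace Cov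
variable (C : Cov M) {F : C.I → M → ℂ} {r B δ a b c₀ : ℝ} {p : M} {i j : C.I}

theorem s2h {G : ℕ → C.I → M → ℂ} {r' : ℝ} (hG : ∀ n, C.Fr (G n) r B) (hN : C.NoLim G r)
    (hδ : 0 < δ) (h1 : 1 < r') (hr' : r' < r) (hr : r ≤ 3) :
    ∃ K, 0 ≤ K ∧ ∀ᶠ n in atTop, C.S2 (G n) r r' δ K := by
  obtain ⟨a, c₀, K, hK⟩ := par h1
  obtain ⟨K₀, h0, hA⟩ := C.apd hK hG hN hδ.le (h1.trans hr') hr' hr
  obtain ⟨c, c0, hc⟩ := C.seq hK B hδ (K₀ := 2 * K₀ + 1) (by positivity)
  obtain ⟨c', c1, hc'⟩ := C.fin_sol B h1 hr' hr hδ.le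
  refine ⟨c' * (1 + c), by positivity, hA.mono fun n hn κ D α hα => ?_⟩
  obtain ⟨f, f1, f2⟩ := hc' _ (hG n) κ D α _ hα
    (hc _ r (hG n) (h1.trans hr') hr' hr κ (C.apx h0 (hn κ)) D α hα)
  exact ⟨f, fun i p hp => (f1 i p hp).trans_eq (by ring), f2⟩

end Cov

end Vale.Agent.P267
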