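import Vale.Agent.P271A.Hil

/-! P267, solver part: the Riesz theorem for families of square integrable functions. -/

open scoped Topology ENNReal ComplexConjugate
open Filter Set MeasureTheory

noncomputable section

namespace Vale.Agent.P267

theorem rsz_hb {V H : Type} [AddCommGroup V] [Module ℂ V] [NormedAddCommGroup H]
    [InnerProductSpace ℂ H] [CompleteSpace H] (T : V →ₗ[ℂ] H) (Λ : V →ₗ[ℂ] ℂ) {B : ℝ}
    (hB : 0 ≤ B) (hb : ∀ v, ‖Λ v‖ ≤ B * ‖T v‖) :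
    ∃ u : H, ‖u‖ ≤ B ∧ ∀ v, Λ v = inner ℂ u (T v) := by
  have hker : LinearMap.ker T ≤ LinearMap.ker Λ := fun v hv => by
    have h1 := hb v
    rw [LinearMap.mem_ker.1 hv, norm_zero, mul_zero] at h1
    exact LinearMap.mem_ker.2 (norm_le_zero_iff.1 h1)
  let f : LinearMap.range T →ₗ[ℂ] ℂ :=
    ((LinearMap.ker T).liftQ Λ hker).comp T.quotKerEquivRange.symm.toLinearMap
  have hf : ∀ v, f ⟨T v, LinearMap.mem_range_self T v⟩ = Λ v := fun v => by
    have h1 := LinearMap.quotKerEquivRange_symm_apply_image T v (LinearMap.mem_range_self T v)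
    change (LinearMap.ker T).liftQ Λ hker (T.quotKerEquivRange.symm _) = _
    rw [h1, Submodule.mkQ_apply, Submodule.liftQ_apply]
  have hfb : ∀ x : LinearMap.range T, ‖f x‖ ≤ B * ‖x‖ := by
    rintro ⟨_, v, rfl⟩
    rw [hf]
    exact hb v
  obtain ⟨g, hg, hgn⟩ := exists_extension_norm_eq (LinearMap.range T) (f.mkContinuous _ hfb)
  refine ⟨(InnerProductSpace.toDual ℂ H).symm g, ?_, fun v => ?_⟩
  · rw [LinearIsometryEquiv.norm_map]
    exact hgn.le.trans (f.mkContinuous_norm_le hB hfb)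
  · rw [InnerProductSpace.toDual_symm_apply, ← hf]
    exact (hg ⟨T v, LinearMap.mem_range_self T v⟩).symm

theorem rsz_abs {I V Y : Type} [AddCommGroup V] [Module ℂ V] [MeasurableSpace Y] {ν : Measure Y}
    (T : I × Fin 2 → V → Y → ℂ) (lam : I → V → ℂ) {B : ℝ} (hB : 0 ≤ B)
    (hT : ∀ j v, MemLp (T j v) 2 ν) (Ta : ∀ j v w, T j (v + w) =ᵐ[ν] T j v + T j w)
    (Ts : ∀ j (c : ℂ) v, T j (c • v) =ᵐ[ν] c • T j v)
    (la : ∀ i v w, lam i (v + w) = lam i v + lam i w)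
    (ls : ∀ i (c : ℂ) v, lam i (c • v) = c * lam i v)
    (fin : ∀ v, ∃ S : Finset I, ∀ i ∉ S, lam i v = 0 ∧ ∀ a, T (i, a) v =ᵐ[ν] 0)
    (bd : ∀ v (X : ℝ) (S : Finset I), 0 ≤ X → (∀ j, eLpNorm (T j v) 2 ν ≤ ENNReal.ofReal X) →
      ‖∑ i ∈ S, lam i v‖ ≤ B * X) :
    ∃ u : I × Fin 2 → Y → ℂ, (∀ j, MemLp (u j) 2 ν ∧ eLpNorm (u j) 2 ν ≤ ENNReal.ofReal B) ∧
      ∀ v (S : Finset I), (∀ i ∉ S, lam i v = 0 ∧ ∀ a, T (i, a) v =ᵐ[ν] 0) →
        ∑ i ∈ S, lam i v = ∑ i ∈ S, ∑ a, ∫ y, T (i, a) v y * conj (u (i, a) y) ∂ν := by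
  have z0 : ∀ j v, T j v =ᵐ[ν] 0 → (hT j v).toLp (T j v) = 0 := fun j v h =>
    Lp.eq_zero_iff_ae_eq_zero.2 ((hT j v).coeFn_toLp.trans h)
  have off : ∀ v (S : Finset I), (∀ i ∉ S, lam i v = 0 ∧ ∀ a, T (i, a) v =ᵐ[ν] 0) →
      ∀ j ∉ S ×ˢ (Finset.univ : Finset (Fin 2)), (hT j v).toLp (T j v) = 0 := fun v S h j hj =>
    z0 j v ((h j.1 fun h' => hj (Finset.mem_product.2 ⟨h', Finset.mem_univ _⟩)).2 j.2)
  have hm : ∀ v, Memℓp (fun j => (hT j v).toLp (T j v)) 2 := fun v => by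
    obtain ⟨S, hS⟩ := fin v
    refine (memℓp_zero ((S ×ˢ (Finset.univ : Finset (Fin 2))).finite_toSet.subset
      fun j hj => ?_)).of_exponent_ge zero_le
    by_contra h
    exact hj (off v S hS j h)
  let T' : V →ₗ[ℂ] lp (fun _ : I × Fin 2 => Lp ℂ 2 ν) 2 :=
    { toFun := fun v => ⟨fun j => (hT j v).toLp (T j v), hm v⟩
      map_add' := fun v w => lp.ext (funext fun j =>
        MemLp.toLp_congr (hT j (v + w)) ((hT j v).add (hT j w)) (Ta j v w))
      map_smul' := fun c v => lp.ext (funext fun j =>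
        MemLp.toLp_congr (hT j (c • v)) ((hT j v).const_smul c) (Ts j c v)) }
  have fs : ∀ v (S : Finset I), (∀ i ∉ S, lam i v = 0 ∧ ∀ a, T (i, a) v =ᵐ[ν] 0) →
      ∑ᶠ i, lam i v = ∑ i ∈ S, lam i v := fun v S h =>
    finsum_eq_sum_of_support_subset _ fun i hi => by_contra fun h' => hi (h i h').1
  have ff : ∀ v, (Function.support fun i => lam i v).Finite := fun v => by
    obtain ⟨S, hS⟩ := fin v
    exact S.finite_toSet.subset fun i hi => by_contra fun h' => hi (hS i h').1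
  let Λ : V →ₗ[ℂ] ℂ :=
    { toFun := fun v => ∑ᶠ i, lam i v
      map_add' := fun v w => by
        simp only [la]
        exact finsum_add_distrib (ff v) (ff w)
      map_smul' := fun c v => by
        simp only [ls]
        exact (mul_finsum' _ c (ff v)).symm }
  have nm : ∀ (x : lp (fun _ : I × Fin 2 => Lp ℂ 2 ν) 2) j {X : ℝ}, ‖x‖ ≤ X →
      eLpNorm (x j) 2 ν ≤ ENNReal.ofReal X := fun x j X h => by
    rw [← Lp.enorm_def, ← ofReal_norm]
    exact ENNReal.ofReal_le_ofReal ((lp.norm_apply_le_norm two_ne_zero x j).trans h)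
  obtain ⟨u, hu, he⟩ := rsz_hb T' Λ hB fun v => by
    obtain ⟨S, hS⟩ := fin v
    refine (congrArg norm (fs v S hS)).trans_le (bd v _ S (norm_nonneg _) fun j => ?_)
    rw [← eLpNorm_congr_ae (hT j v).coeFn_toLp]
    exact nm (T' v) j le_rfl
  refine ⟨fun j => u j, fun j => ⟨Lp.memLp _, nm u j hu⟩, fun v S h => ?_⟩
  rw [← fs v S h, ← Finset.sum_product' (f := fun i a => ∫ y, T (i, a) v y * conj (u (i, a) y) ∂ν)]
  refine (he v).trans ?_
  refine (lp.inner_eq_tsum u (T' v)).trans ((tsum_eq_sum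
    (s := S ×ˢ (Finset.univ : Finset (Fin 2))) fun j hj =>
      (congrArg (inner ℂ (u j)) (off v S h j hj)).trans (inner_zero_right _)).trans ?_)
  exact Finset.sum_congr rfl fun j _ => P271A.hil_inner (hT j v).coeFn_toLp EventuallyEq.rfl

end Vale.Agent.P267
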