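import Vale.Agent.P267S.CBase

/-! P267, solver part C: oscillation of almost holomorphic functions. -/

open scoped Topology
open Filter Metric Set

noncomputable section

namespace Vale.Agent.P267

variable {M : Type} [TopologicalSpace M] [ChartedSpace C2 M]

namespace Cov
variable (C : Cov M)

/-- The oscillation on the block at level `σ` is at most `o`. -/
def Osl (w : M → ℂ) (σ o : ℝ) : Prop :=
  ∀ p q, |C.t p - σ| ≤ 1 → |C.t q - σ| ≤ 1 → ‖w p - w q‖ ≤ o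

/-- `w` is close to a holomorphic function on the chart `i`. -/
def Nr (w : M → ℂ) (i : C.I) (η : ℝ) : Prop :=
  ∃ H : M → ℂ, ∀ p ∈ C.U i 1, HolAt H p ∧ ‖w p - H p‖ ≤ η

/-- Holomorphic functions with bounded oscillation on blocks are constant. -/
def Liou : Prop :=
  ∀ (f : M → ℂ) (o : ℝ), (∀ p, HolAt f p) → (∀ σ, C.Osl f σ o) → ∀ p q, f p = f q

variable {C} {w : M → ℂ}

theorem ta_chain {x y o : ℝ} (ho : 0 ≤ o) (h : ∀ σ ∈ Icc x y, C.Osl w σ o) (m : ℕ) :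
    ∀ p q, C.t p ∈ Icc x y → C.t q ∈ Icc x y → |C.t p - C.t q| ≤ m + 1 →
      ‖w p - w q‖ ≤ (m + 1) * o := by
  have h0 : ∀ p q, C.t p ∈ Icc x y → |C.t p - C.t q| ≤ 1 → ‖w p - w q‖ ≤ o := fun p q hp hpq =>
    h _ hp p q (by simp) (by rwa [abs_sub_comm])
  induction m with
  | zero => exact fun p q hp _ hpq => by simpa using h0 p q hp (by simpa using hpq)
  | succ m ih =>
    have key : ∀ p q, C.t p ∈ Icc x y → C.t q ∈ Icc x y → C.t q + (m + 1) ≤ C.t p →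
        C.t p - C.t q ≤ m + 2 → ‖w p - w q‖ ≤ (m + 2) * o := fun p q hp hq h1 h2 => by
      have hm : (0 : ℝ) ≤ m := Nat.cast_nonneg m
      have e := C.cb_t (-1) p
      push_cast at e
      have k1 := h0 p ((C.g ^ (-1 : ℤ)) p) hp (by rw [e]; simp)
      have k2 := ih ((C.g ^ (-1 : ℤ)) p) q ⟨by linarith [hq.1], by linarith [hp.2]⟩ hq
        (abs_le.2 ⟨by linarith, by linarith⟩)
      linarith [norm_sub_le_norm_sub_add_norm_sub (w p) (w ((C.g ^ (-1 : ℤ)) p)) (w q)]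
    intro p q hp hq hpq
    push_cast at hpq ⊢
    have h3 := abs_le.1 hpq
    by_cases h1 : C.t q + (m + 1) ≤ C.t p
    · linarith [key p q hp hq h1 (by linarith)]
    by_cases h2 : C.t p + (m + 1) ≤ C.t q
    · rw [norm_sub_rev]
      linarith [key q p hq hp h2 (by linarith)]
    · linarith [ih p q hp hq (abs_le.2 ⟨by linarith, by linarith⟩)]

theorem Osl.shift {σ o : ℝ} (h : C.Osl w σ o) (m : ℤ) (c : ℂ) :
    C.Osl (fun p => w ((C.g ^ m) p) - c) (σ - m) o := fun p q hp hq => by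
  rw [sub_sub_sub_cancel_right]
  refine h _ _ ?_ ?_ <;> rw [C.cb_t]
  · rwa [show C.t p + m - σ = C.t p - (σ - m) by ring]
  · rwa [show C.t q + m - σ = C.t q - (σ - m) by ring]

theorem Nr.shift {a : C.ι} {k : ℤ} {η : ℝ} (m : ℤ) (h : C.Nr w (a, k - m) η) (c : ℂ) :
    C.Nr (fun p => w ((C.g ^ m) p) - c) (a, k) η := by
  obtain ⟨H, hH⟩ := h
  refine ⟨H ∘ (C.g ^ m : M ≃ₜ M) - fun _ => c, fun p hp => ?_⟩
  have h1 := hH _ (C.cb_shift.1 (by rwa [sub_add_cancel]))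
  exact ⟨cb_sub ((C.cb_hol_g m H p).2 h1.1) (cb_const c p), by simpa using h1.2⟩

/-- Limits of almost holomorphic functions. -/
theorem ta_lim (𝒰 : Ultrafilter ℕ) {w : ℕ → M → ℂ} {η : ℕ → ℝ} (hη : Tendsto η 𝒰 (𝓝 0))
    (hn : ∀ i, ∀ᶠ k in 𝒰, C.Nr (w k) i (η k))
    (hb : ∀ i, ∃ B, ∀ᶠ k in 𝒰, ∀ p ∈ C.U i 1, ‖w k p‖ ≤ B) :
    ∃ f : M → ℂ, (∀ p, HolAt f p) ∧
      ∀ p (x : ℕ → M), Tendsto x 𝒰 (𝓝 p) → Tendsto (fun k => w k (x k)) 𝒰 (𝓝 (f p)) := by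
  have h1 : ∀ i, ∃ F : M → ℂ, ∀ p ∈ C.U i 1, HolAt F p ∧
      ∀ x : ℕ → M, Tendsto x 𝒰 (𝓝 p) → Tendsto (fun k => w k (x k)) 𝒰 (𝓝 (F p)) := fun i => by
    have h2 : ∀ k, ∃ H : M → ℂ, C.Nr (w k) i (η k) →
        ∀ p ∈ C.U i 1, HolAt H p ∧ ‖w k p - H p‖ ≤ η k := fun k => by
      by_cases h : C.Nr (w k) i (η k)
      · exact h.imp fun _ h _ => h
      · exact ⟨0, fun h' => absurd h' h⟩
    choose H hH using h2
    obtain ⟨B, hB⟩ := hb i
    obtain ⟨F, hF⟩ := C.cb_montel_ch 𝒰 i (r := 1) (B := B + 1) (by norm_num) (f := H) (by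
      filter_upwards [hn i, hB, hη.eventually (gt_mem_nhds one_pos)] with k k1 k2 k3 p hp
      refine ⟨(hH k k1 p hp).1, ?_⟩
      linarith [norm_le_norm_add_norm_sub (w k p) (H k p), (hH k k1 p hp).2, k2 p hp,
        norm_sub_rev (w k p) (H k p)])
    refine ⟨F, fun p hp => ⟨(hF p hp).1, fun x hx => ?_⟩⟩
    have h3 : Tendsto (fun k => w k (x k) - H k (x k)) 𝒰 (𝓝 0) := by
      refine squeeze_zero_norm' ?_ hη
      filter_upwards [hn i, hx ((C.cb_open i 1).mem_nhds hp)] with k k1 k2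
      exact (hH k k1 _ k2).2
    simpa using h3.add ((hF p hp).2 x hx)
  choose F hF using h1
  refine ⟨fun p => F (C.idx p) p, fun p => cb_congr (hF _ p (C.cb_mem_idx p)).1 ?_,
    fun p => (hF _ p (C.cb_mem_idx p)).2⟩
  filter_upwards [(C.cb_open _ 1).mem_nhds (C.cb_mem_idx p)] with q hq
  exact tendsto_nhds_unique ((hF _ q hq).2 _ tendsto_const_nhds)
    ((hF _ q (C.cb_mem_idx q)).2 _ tendsto_const_nhds)

/-- The three annulus lemma. -/
theorem ta (hL : C.Liou) : ∃ (J : ℕ) (θ : ℝ), 0 < θ ∧ ∀ (w : M → ℂ) (τ : ℝ),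
    (∀ i : C.I, |(i.2 : ℝ) + τ| ≤ J → C.Nr w i θ) → (∀ σ, |σ - τ| ≤ J → C.Osl w σ 1) →
    C.Osl w τ (1 / 4) := by
  by_contra hn
  have h1 : ∀ J : ℕ, ∃ (w : M → ℂ) (p q : M), (∀ i : C.I, |(i.2 : ℝ)| + 1 ≤ J →
      C.Nr w i (1 / (J + 1))) ∧ (∀ σ : ℝ, |σ| + 1 ≤ J → C.Osl w σ 1) ∧ |C.t p| ≤ 2 ∧ |C.t q| ≤ 2 ∧
      w p = 0 ∧ 1 / 4 < ‖w q‖ := fun J => by
    by_contra h2
    refine hn ⟨J, 1 / (J + 1), by positivity, fun w τ k1 k2 p q hp hq => not_lt.1 fun k3 => h2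
      ⟨fun x => w ((C.g ^ ⌊τ⌋) x) - w p, (C.g ^ (-⌊τ⌋)) p, (C.g ^ (-⌊τ⌋)) q, fun i hi => ?_,
        fun σ hσ => ?_, ?_, ?_, ?_, ?_⟩⟩
    all_goals have e1 := Int.floor_le τ
    all_goals have e2 := Int.lt_floor_add_one τ
    · refine Nr.shift (a := i.1) _ (k1 _ ?_) _
      push_cast
      exact abs_le.2 ⟨by linarith [neg_abs_le (i.2 : ℝ)], by linarith [le_abs_self (i.2 : ℝ)]⟩
    · simpa using (k2 (σ + ⌊τ⌋)
        (abs_le.2 ⟨by linarith [neg_abs_le σ], by linarith [le_abs_self σ]⟩)).shift ⌊τ⌋ (w p)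
    · rw [C.cb_t]; push_cast
      exact abs_le.2 ⟨by linarith [abs_le.1 hp], by linarith [abs_le.1 hp]⟩
    · rw [C.cb_t]; push_cast
      exact abs_le.2 ⟨by linarith [abs_le.1 hq], by linarith [abs_le.1 hq]⟩
    · simp only [C.cb_zpow_neg', sub_self]
    · simp only [C.cb_zpow_neg']
      rwa [norm_sub_rev]
  choose w p q k1 k2 k3 k4 k5 k6 using h1
  have hev : ∀ x : ℝ, ∀ᶠ J : ℕ in hyperfilter ℕ, x ≤ J := fun x =>
    Nat.hyperfilter_le_atTop (tendsto_natCast_atTop_atTop.eventually_ge_atTop x)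
  obtain ⟨f, hf, hl⟩ := ta_lim (C := C) (hyperfilter ℕ) (w := w)
    (tendsto_one_div_add_atTop_nhds_zero_nat.mono_left Nat.hyperfilter_le_atTop)
    (fun i => (hev _).mono fun J hJ => k1 J i hJ) fun i => by
      obtain ⟨m, hm⟩ := exists_nat_ge (|(i.2 : ℝ)| + |C.R| + 2)
      refine ⟨(2 * m : ℕ) + 1, (hev (m + 1)).mono fun J hJ x hx => ?_⟩
      have e1 := abs_le.1 (C.cb_lev hx)
      have e2 := abs_le.1 (k3 J)
      have e3 := neg_abs_le (i.2 : ℝ)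
      have e4 := le_abs_self (i.2 : ℝ)
      have e5 := le_abs_self C.R
      have e6 := abs_nonneg C.R
      have := ta_chain (C := C) (w := w J) (x := -m) (y := m) zero_le_one
        (fun σ hσ => k2 J σ (by linarith [abs_le.2 hσ])) (2 * m) x (p J)
        ⟨by linarith, by linarith⟩ ⟨by linarith, by linarith⟩
        (by push_cast; exact abs_le.2 ⟨by linarith, by linarith⟩)
      rwa [k5, sub_zero, mul_one] at this
  obtain ⟨a, ha⟩ := C.cb_pt (hyperfilter ℕ) (.of_forall k3)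
  obtain ⟨b, hb⟩ := C.cb_pt (hyperfilter ℕ) (.of_forall k4)
  have h2 : f a = f b := hL f 1 hf (fun σ x y hx hy => le_of_tendsto
    ((hl x _ tendsto_const_nhds).sub (hl y _ tendsto_const_nhds)).norm
    ((hev _).mono fun J hJ => k2 J σ hJ x y hx hy)) a b
  have h3 : f a = 0 := tendsto_nhds_unique (hl a p ha) (by simp only [k5]; exact tendsto_const_nhds)
  have h4 := ge_of_tendsto' (hl b q hb).norm fun J => (k6 J).le
  rw [← h2, h3, norm_zero] at h4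
  norm_num at h4

end Cov

end Vale.Agent.P267
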